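import Mathlib

/-! Ordered index sets, the host matrix and the pattern for the ordered removal construction. -/

set_option autoImplicit false

namespace Crest.Agent.R47

/-- Positions: a block number and an index inside the block. Blocks `a ≤ b < a + T` are
interleaved, all other blocks are contiguous. -/
def Pos (m N _a _T : ℕ) : Type := Fin m × Fin N

namespace Pos

variable {m N a T : ℕ}

instance : Fintype (Pos m N a T) := inferInstanceAs (Fintype (Fin m × Fin N))

lemma card_eq : Fintype.card (Pos m N a T) = m * N := by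
  change Fintype.card (Fin m × Fin N) = m * N
  simp

/-- block number -/
def blk (p : Pos m N a T) : ℕ := (Prod.fst p : Fin m)
/-- index in the block -/
def idx (p : Pos m N a T) : Fin N := Prod.snd p

lemma blk_lt (p : Pos m N a T) : p.blk < m := (Prod.fst p : Fin m).2

/-- constructor -/
def mk (b : ℕ) (hb : b < m) (i : Fin N) : Pos m N a T := (⟨b, hb⟩, i)

@[simp] lemma blk_mk (b : ℕ) (hb : b < m) (i : Fin N) : (mk b hb i : Pos m N a T).blk = b := rfl
@[simp] lemma idx_mk (b : ℕ) (hb : b < m) (i : Fin N) : (mk b hb i : Pos m N a T).idx = i := rfl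

lemma ext' {p q : Pos m N a T} (h1 : p.blk = q.blk) (h2 : p.idx = q.idx) : p = q :=
  Prod.ext (Fin.ext h1) h2

/-- sorting key -/
def key (p : Pos m N a T) : ℕ ×ₗ ℕ ×ₗ ℕ :=
  if p.blk < a then toLex (0, toLex (p.blk, p.idx.val))
  else if p.blk < a + T then toLex (1, toLex (p.idx.val, p.blk))
  else toLex (2, toLex (p.blk, p.idx.val))

lemma key_injective : Function.Injective (key : Pos m N a T → _) := by
  intro p q h
  unfold key at h
  split_ifs at h <;> simp only [toLex_inj, Prod.mk.injEq] at h <;>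
    exact ext' (by omega) (Fin.ext (by omega))

noncomputable instance : LinearOrder (Pos m N a T) := LinearOrder.lift' key key_injective

lemma lt_iff_key {p q : Pos m N a T} : p < q ↔ key p < key q := Iff.rfl

lemma blk_le_of_lt {p q : Pos m N a T} (h : p < q) (h' : p.blk < a ∨ a + T ≤ q.blk) :
    p.blk ≤ q.blk := by
  rw [lt_iff_key] at h
  unfold key at h
  split_ifs at h <;> simp only [Prod.Lex.toLex_lt_toLex] at h <;> omega

lemma zone_of_lt {p q : Pos m N a T} (h : p < q) :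
    (a ≤ p.blk → a ≤ q.blk) ∧ (a + T ≤ p.blk → p.blk ≤ q.blk) ∧ (q.blk < a → p.blk ≤ q.blk) := by
  rw [lt_iff_key] at h
  unfold key at h
  split_ifs at h <;> simp only [Prod.Lex.toLex_lt_toLex] at h <;> omega

lemma idx_le_of_lt {p q : Pos m N a T} (h : p < q) (h1 : a ≤ p.blk) (h2 : q.blk < a + T) :
    (p.idx : ℕ) ≤ q.idx := by
  rw [lt_iff_key] at h
  unfold key at h
  split_ifs at h <;> simp only [Prod.Lex.toLex_lt_toLex] at h <;> omega

lemma lt_of_blk {p q : Pos m N a T} (h : p.blk < q.blk)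
    (h' : p.blk < a ∨ a + T ≤ q.blk ∨ (p.idx : ℕ) = q.idx) : p < q := by
  rw [lt_iff_key]
  unfold key
  split_ifs <;> simp only [Prod.Lex.toLex_lt_toLex, true_and] <;> omega

end Pos

/-- the bit examined in step `s` -/
def bit (h s x : ℕ) : ℕ := x / 2 ^ (if s ≤ h then h - s else s - h - 2) % 2

lemma bit_le (h s x : ℕ) : bit h s x ≤ 1 := by unfold bit; omega

/-- the comparison at stage `t` -/
def F (h t x y : ℕ) : Prop :=
  if t ≤ h then x / 2 ^ (h - t) ≤ y / 2 ^ (h - t) else x / 2 ^ (t - h - 1) < y / 2 ^ (t - h - 1)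

lemma F_anti {h t x x' y : ℕ} (hx : x ≤ x') (H : F h t x' y) : F h t x y := by
  unfold F at *
  split_ifs at H ⊢
  · exact (Nat.div_le_div_right hx).trans H
  · exact lt_of_le_of_lt (Nat.div_le_div_right hx) H

lemma F_zero {h x y : ℕ} (hx : x < 2 ^ h) : F h 0 x y := by
  unfold F
  simp [Nat.div_eq_of_lt hx]

lemma not_F_last {h x y : ℕ} (hy : y < 2 ^ h) : ¬ F h (2 * h + 1) x y := by
  unfold F
  rw [if_neg (by omega), show 2 * h + 1 - h - 1 = h by omega, Nat.div_eq_of_lt hy]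
  exact Nat.not_lt_zero _

lemma F_step {h t x y y' : ℕ} (hh : 1 ≤ h) (ht : t ≤ 2 * h) (hx : x < 2 ^ h) (hy : y < 2 ^ h)
    (hyy : t = 0 ∨ t = 2 * h ∨ y ≤ y') (b1 : t = 0 ∨ bit h (t + 1) y = bit h (t + 1) x)
    (b2 : t = 2 * h ∨ bit h (t + 1) y' = bit h (t + 1) x)
    (f1 : F h t x y) (f2 : ¬ F h (t + 1) x y') : t = h ∧ x = y ∧ x = y' := by
  unfold F bit at *
  rcases lt_trichotomy t h with c | c | c
  · exfalso
    rw [if_pos c.le] at f1
    rw [if_pos (by omega)] at f2 b2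
    obtain ⟨s, hs⟩ : ∃ s, h - t = s + 1 := ⟨h - t - 1, by omega⟩
    rw [show h - (t + 1) = s by omega] at f2 b2
    rw [hs] at f1
    have e : x / 2 ^ (s + 1) ≤ y' / 2 ^ (s + 1) := by
      rcases hyy with h0 | h0 | h0
      · rw [Nat.div_eq_of_lt (by rw [← hs, h0]; simpa using hx)]; exact Nat.zero_le _
      · omega
      · exact f1.trans (Nat.div_le_div_right h0)
    rw [pow_succ, ← Nat.div_div_eq_div_mul, ← Nat.div_div_eq_div_mul] at e
    omega
  · subst c
    rw [if_pos le_rfl] at f1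
    rw [if_neg (by omega)] at f2
    simp only [Nat.sub_self, pow_zero, Nat.div_one, show t + 1 - t - 1 = 0 by omega] at f1 f2
    omega
  · exfalso
    rw [if_neg (by omega)] at f1 f2 b1
    obtain ⟨s, hs⟩ : ∃ s, t - h - 1 = s := ⟨_, rfl⟩
    rw [show t + 1 - h - 1 = s + 1 by omega] at f2
    rw [show t + 1 - h - 2 = s by omega] at b1
    rw [hs] at f1
    have e : x / 2 ^ (s + 1) < y / 2 ^ (s + 1) := by
      rw [pow_succ, ← Nat.div_div_eq_div_mul, ← Nat.div_div_eq_div_mul]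
      omega
    rcases hyy with h0 | h0 | h0
    · omega
    · rw [Nat.div_eq_of_lt (a := y) (by rw [show s + 1 = h by omega]; exact hy)] at e
      exact Nat.not_lt_zero _ e
    · exact f2 (lt_of_lt_of_le e (Nat.div_le_div_right h0))

/-- tag row `b` against stage column `(t, y)` -/
def TS (h b t y : ℕ) : Prop :=
  (b / 14 = 4 ∧ ((b % 14 = 1 ∧ t ≤ 2 * h) ∨ (b % 14 = 3 ∧ t = 2 * h + 1))) ∨
  (b % 14 = 1 ∧ (b / 14 = 2 * t + 5 ∨ b / 14 = 2 * t + 6) ∧
    (t = 0 ∨ b / 14 = 2 * t + 5 + bit h (t + 1) y)) ∨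
  (b % 14 = 3 ∧ 1 ≤ t ∧ (b / 14 = 2 * t + 3 ∨ b / 14 = 2 * t + 4) ∧
    (t = 2 * h + 1 ∨ b / 14 = 2 * t + 3 + bit h t y))

/-- tag row `b` against tag column `d` (counted from the first tag column) -/
def TT (b d : ℕ) : Prop :=
  b / 14 = d / 5 + 4 ∧ ((d % 5 = 0 ∧ b % 14 % 2 = 0) ∨ (b % 14 = 12 ∧ d % 5 % 2 = 0) ∨
    (b % 14 = 13 ∧ d % 5 = 1 ∧ d / 5 ≠ 0))

/-- core row `(s, x)` against tag column `d` -/
def CT (h s x d : ℕ) : Prop := d % 5 = 1 ∧ (d / 5 = 0 ∨ d / 5 + 1 = 2 * s + bit h s x)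

/-- the host matrix, on block numbers and indices -/
def V (h b x c y : ℕ) : Prop :=
  if b < 384 * h + 1 then (if c < 2 * h + 2 then TS h b c y else TT b (c - (2 * h + 2)))
  else (if c < 2 * h + 2 then F h c x y else CT h (386 * h + 2 - b) x (c - (2 * h + 2)))

/-- the pattern -/
def Hp (i j : ℕ) : Prop :=
  (j = 0 ∧ (i = 52 ∨ i = 65)) ∨ (j = 1 ∧ i = 54) ∨ (j = 2 ∧ 51 ≤ i ∧ i ≤ 63 ∧ i % 2 = 1) ∨
    (i = 63 ∧ (j = 4 ∨ j = 6)) ∨ (j = 3 ∧ (i = 64 ∨ i = 65))

/-- rows -/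
abbrev Row (h : ℕ) : Type := Pos (386 * h + 2) (2 ^ h) (384 * h + 1) (2 * h + 1)
/-- columns -/
abbrev Col (h : ℕ) : Type := Pos (386 * h + 2) (2 ^ h) 1 (2 * h)

/-- host matrix on rows and columns -/
def M {h : ℕ} (r : Row h) (c : Col h) : Prop := V h r.blk r.idx c.blk c.idx

end Crest.Agent.R47
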