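import Crest.Agent.R47.Rigid

/-! A pattern-free matrix differs from the host on every witness structure. -/

set_option autoImplicit false

namespace Crest.Agent.R47

variable {h : ℕ}

/-- total constructor -/
def ps {a T : ℕ} (b : ℕ) (i : Fin (2 ^ h)) : Pos (386 * h + 2) (2 ^ h) a T :=
  Pos.mk (min b (386 * h + 1)) (by omega) i

@[simp] lemma ps_blk {a T : ℕ} (b : ℕ) (i : Fin (2 ^ h)) :
    (ps b i : Pos (386 * h + 2) (2 ^ h) a T).blk = min b (386 * h + 1) := rfl

@[simp] lemma ps_idx {a T : ℕ} (b : ℕ) (i : Fin (2 ^ h)) :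
    (ps b i : Pos (386 * h + 2) (2 ^ h) a T).idx = i := rfl

/-- no ordered copy of the pattern -/
def Free (B : Row h → Col h → Prop) : Prop :=
  ∀ (r : Fin 66 → Row h) (c : Fin 66 → Col h), StrictMono r → StrictMono c →
    ¬ ∀ i j, B (r i) (c j) ↔ Hp i j

set_option maxHeartbeats 2000000 in
lemma mkCopy (hh : 1 ≤ h) {B : Row h → Col h → Prop} (hB : Free B) (k j : Fin (2 ^ h)) (f : ℕ)
    (hf : f ≤ 4 * h + 2) (p1 p2 : Row h) (q1 q2 : Col h) (hp12 : p1 < p2)
    (hp1 : 14 * (f + 4) + 13 ≤ p1.blk) (hq12 : q1 < q2) (hq2 : q2.blk < 2 * h + 2)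
    (hTT : ∀ (r : Row h) (c : Col h), r.blk < 384 * h + 1 → r.idx = k → 2 * h + 2 ≤ c.blk →
      c.idx = j → (B r c ↔ TT r.blk (c.blk - (2 * h + 2))))
    (hr1 : ∀ r : Row h, r.idx = k → (r.blk < 51 ∨ (r.blk / 14 = f + 4 ∧ r.blk % 14 ≤ 12)) →
      (B r q1 ↔ (r.blk / 14 = f + 4 ∧ r.blk % 14 = 1)))
    (hr2 : ∀ r : Row h, r.idx = k → (r.blk < 51 ∨ (r.blk / 14 = f + 4 ∧ r.blk % 14 ≤ 12)) →
      (B r q2 ↔ (r.blk / 14 = f + 4 ∧ r.blk % 14 = 3)))
    (hc1 : ∀ c : Col h, c.idx = j → 2 * h + 2 ≤ c.blk →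
      ((c.blk - (2 * h + 2)) / 5 = f ∨ 4 * h + 3 ≤ (c.blk - (2 * h + 2)) / 5) →
      (B p1 c ↔ ((c.blk - (2 * h + 2)) / 5 = f ∧ (c.blk - (2 * h + 2)) % 5 = 1)))
    (hc2 : ∀ c : Col h, c.idx = j → 2 * h + 2 ≤ c.blk →
      ((c.blk - (2 * h + 2)) / 5 = f ∨ 4 * h + 3 ≤ (c.blk - (2 * h + 2)) / 5) →
      (B p2 c ↔ ((c.blk - (2 * h + 2)) / 5 = f ∧ (c.blk - (2 * h + 2)) % 5 = 1)))
    (v11 : ¬ B p1 q1) (v12 : ¬ B p1 q2) (v21 : B p2 q1) (v22 : ¬ B p2 q2) : False := by
  let rb : ℕ → ℕ := fun i => if i < 51 then i else 14 * (f + 4) + (i - 51)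
  let cb : ℕ → ℕ := fun i => if i < 7 then 2 * h + 2 + 5 * f + (i - 2) else 22 * h + 17 + i
  let r : Fin 66 → Row h := fun i => if i.val < 64 then ps (rb i) k else if i.val = 64 then p1 else p2
  let c : Fin 66 → Col h := fun i => if i.val = 0 then q1 else if i.val = 1 then q2 else ps (cb i) j
  have hr : StrictMono r := by
    intro i i' hi
    have hi' : i.val < i'.val := hi
    have l1 : ∀ n, n < 64 → (ps (rb n) k : Row h) < p1 := fun n hn =>
      Pos.lt_of_blk (by simp only [ps_blk, rb]; split_ifs <;> omega)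
        (Or.inl (by simp only [ps_blk, rb]; split_ifs <;> omega))
    simp only [r]
    split_ifs with a1 a2 a3 a4 a5 a6 a7 a8
    · exact Pos.lt_of_blk (by simp only [ps_blk, rb]; split_ifs <;> omega)
        (Or.inl (by simp only [ps_blk, rb]; split_ifs <;> omega))
    · exact l1 _ a1
    · exact (l1 _ a1).trans hp12
    · omega
    · omega
    · exact hp12
    · omega
    · omega
    · omega
  have hc : StrictMono c := by
    intro i i' hi
    have hi' : i.val < i'.val := hi
    have hi2 := i'.2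
    have l1 : ∀ n, 2 ≤ n → n < 66 → q2 < (ps (cb n) j : Col h) := fun n hn hn' =>
      Pos.lt_of_blk (by simp only [ps_blk, cb]; split_ifs <;> omega)
        (Or.inr (Or.inl (by simp only [ps_blk, cb]; split_ifs <;> omega)))
    simp only [c]
    split_ifs with a1 a2 a3 a4 a5 a6 a7 a8
    · omega
    · exact hq12
    · exact hq12.trans (l1 _ (by omega) hi2)
    · omega
    · omega
    · exact l1 _ (by omega) hi2
    · omega
    · omega
    · exact Pos.lt_of_blk (by simp only [ps_blk, cb]; split_ifs <;> omega)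
        (Or.inr (Or.inl (by simp only [ps_blk, cb]; split_ifs <;> omega)))
  refine hB r c hr hc (fun i i' => ?_)
  have hi := i.2
  have hi' := i'.2
  simp only [r, c]
  split_ifs with a1 a2 a3 a4 a5 a6 a7 a8
  · rw [hr1 _ rfl (by simp only [ps_blk, rb]; split_ifs <;> omega)]
    simp only [ps_blk, rb, Hp]; split_ifs <;> omega
  · rw [hr2 _ rfl (by simp only [ps_blk, rb]; split_ifs <;> omega)]
    simp only [ps_blk, rb, Hp]; split_ifs <;> omega
  · rw [hTT _ _ (by simp only [ps_blk, rb]; split_ifs <;> omega) rfl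
      (by simp only [ps_blk, cb]; split_ifs <;> omega) rfl]
    simp only [ps_blk, rb, cb, Hp, TT]; split_ifs <;> omega
  · simp only [v11, Hp, false_iff]; omega
  · simp only [v12, Hp, false_iff]; omega
  · rw [hc1 _ rfl (by simp only [ps_blk, cb]; split_ifs <;> omega)
      (by simp only [ps_blk, cb]; split_ifs <;> omega)]
    simp only [ps_blk, cb, Hp]; split_ifs <;> omega
  · simp only [v21, Hp, true_iff]; omega
  · simp only [v22, Hp, false_iff]; omega
  · rw [hc2 _ rfl (by simp only [ps_blk, cb]; split_ifs <;> omega)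
      (by simp only [ps_blk, cb]; split_ifs <;> omega)]
    simp only [ps_blk, cb, Hp]; split_ifs <;> omega

/-- the witness structure an entry belongs to -/
def wit (r : Row h) (c : Col h) : Fin (2 ^ h) × Fin (2 ^ h) :=
  if r.blk < 384 * h + 1 then
    (if c.blk = 0 ∨ 2 * h + 1 ≤ c.blk then (r.idx - c.idx, c.idx) else (c.idx, r.idx - c.idx))
  else (r.idx, c.idx)

set_option maxHeartbeats 2000000 in
theorem far (hh : 1 ≤ h) {B : Row h → Col h → Prop} (hB : Free B) (x j : Fin (2 ^ h)) :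
    ∃ r c, ¬ (M r c ↔ B r c) ∧ wit r c = (x, j) := by
  by_contra hcon
  have ag : ∀ r c, wit r c = (x, j) → (B r c ↔ M r c) := fun r c hw => by
    by_contra h0
    exact hcon ⟨r, c, fun h1 => h0 h1.symm, hw⟩
  have ag1 : ∀ (r : Row h) (c : Col h), r.blk < 384 * h + 1 → r.idx = x + j →
      (c.blk = 0 ∨ 2 * h + 1 ≤ c.blk) → c.idx = j → (B r c ↔ M r c) := fun r c h1 h2 h3 h4 =>
    ag r c (by rw [wit, if_pos h1, if_pos h3, h2, h4]; simp)
  have ag2 : ∀ (r : Row h) (c : Col h), r.blk < 384 * h + 1 → r.idx = x + j →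
      ¬ (c.blk = 0 ∨ 2 * h + 1 ≤ c.blk) → c.idx = x → (B r c ↔ M r c) := fun r c h1 h2 h3 h4 =>
    ag r c (by rw [wit, if_pos h1, if_neg h3, h2, h4]; simp)
  have ag3 : ∀ (r : Row h) (c : Col h), 384 * h + 1 ≤ r.blk → r.idx = x → c.idx = j →
      (B r c ↔ M r c) := fun r c h1 h2 h4 =>
    ag r c (by simp [wit, not_lt.2 h1, h2, h4])
  let col : ℕ → Col h := fun t => ps t (if t = 0 ∨ 2 * h + 1 ≤ t then j else x)
  let row : ℕ → Row h := fun s => ps (386 * h + 2 - s) x
  have colb : ∀ t, t ≤ 2 * h + 1 → (col t).blk = t := fun t ht => by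
    simp only [col, ps_blk]; omega
  have rowb : ∀ s, 1 ≤ s → (row s).blk = 386 * h + 2 - s := fun s hs => by
    simp only [row, ps_blk]; omega
  have agS : ∀ (r : Row h) (t : ℕ), t ≤ 2 * h + 1 → r.blk < 384 * h + 1 → r.idx = x + j →
      (B r (col t) ↔ TS h r.blk t (if t = 0 ∨ 2 * h + 1 ≤ t then j else x : Fin (2 ^ h))) := by
    intro r t ht h1 h2
    have e := colb t ht
    have e2 : M r (col t) ↔ TS h r.blk t (if t = 0 ∨ 2 * h + 1 ≤ t then j else x : Fin (2 ^ h)) := by
      rw [M_TS h1 (by omega), e]; rfl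
    rw [← e2]
    by_cases h3 : t = 0 ∨ 2 * h + 1 ≤ t
    · exact ag1 r _ h1 h2 (by rwa [e]) (by simp only [col, ps_idx, if_pos h3])
    · exact ag2 r _ h1 h2 (by rwa [e]) (by simp only [col, ps_idx, if_neg h3])
  have hTT : ∀ (r : Row h) (c : Col h), r.blk < 384 * h + 1 → r.idx = x + j → 2 * h + 2 ≤ c.blk →
      c.idx = j → (B r c ↔ TT r.blk (c.blk - (2 * h + 2))) := fun r c h1 h2 h3 h4 => by
    rw [ag1 r c h1 h2 (by omega) h4, M_TT h1 h3]
  have hCT : ∀ (s : ℕ) (c : Col h), 1 ≤ s → s ≤ 2 * h + 1 → 2 * h + 2 ≤ c.blk → c.idx = j →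
      (B (row s) c ↔ CT h s x (c.blk - (2 * h + 2))) := fun s c h1 h2 h3 h4 => by
    have e := rowb s h1
    rw [ag3 _ c (by omega) rfl h4, M_CT (by omega) h3, e,
      show 386 * h + 2 - (386 * h + 2 - s) = s by omega]
    rfl
  have colt : ∀ t t', t < t' → t' ≤ 2 * h + 1 → col t < col t' := fun t t' h1 h2 => by
    refine Pos.lt_of_blk (by rw [colb t (by omega), colb t' h2]; exact h1) ?_
    rw [colb t (by omega), colb t' h2]
    by_cases z1 : t = 0
    · omega
    by_cases z2 : t' = 2 * h + 1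
    · omega
    refine Or.inr (Or.inr ?_)
    simp only [col, ps_idx]
    rw [if_neg (by omega), if_neg (by omega)]
  have last : ∀ s, 1 ≤ s → s ≤ 2 * h + 1 → ¬ B (row s) (col (2 * h + 1)) := fun s h1 h2 hb => by
    have e := rowb s h1
    have e2 := colb (2 * h + 1) le_rfl
    rw [ag3 _ _ (by omega) rfl (by simp [col]), M_F (by omega) (by omega), e2] at hb
    exact not_F_last (col (2 * h + 1)).idx.2 hb
  have stepA : ∀ t, t ≤ 2 * h → B (row (t + 1)) (col t) → B (row (t + 1)) (col (t + 1)) := by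
    intro t ht hb
    by_contra hn
    have bs := bit_le h (t + 1) x
    have e := rowb (t + 1) (by omega)
    refine mkCopy hh hB (x + j) j (2 * t + 1 + bit h (t + 1) x) (by omega)
      (ps (14 * (2 * t + 1 + bit h (t + 1) x + 4) + 13) (x + j)) (row (t + 1)) (col t) (col (t + 1))
      (Pos.lt_of_blk (by rw [ps_blk]; omega) (by rw [ps_blk]; omega)) (by rw [ps_blk]; omega)
      (colt _ _ (by omega) (by omega)) (by rw [colb _ (by omega)]; omega) hTT ?_ ?_ ?_ ?_ ?_ ?_ hb hn
    · intro r h1 h2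
      rw [agS r t (by omega) (by omega) h1]
      unfold TS
      split_ifs <;> omega
    · intro r h1 h2
      rw [agS r (t + 1) (by omega) (by omega) h1]
      unfold TS
      by_cases z : t + 1 = 0 ∨ 2 * h + 1 ≤ t + 1
      · rw [if_pos z]; omega
      · rw [if_neg z]; omega
    · intro c h1 h2 h3
      rw [hTT _ c (by rw [ps_blk]; omega) rfl h2 h1, ps_blk]
      unfold TT
      omega
    · intro c h1 h2 h3
      rw [hCT (t + 1) c (by omega) (by omega) h2 h1]
      unfold CT
      omega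
    · rw [agS _ t (by omega) (by rw [ps_blk]; omega) rfl, ps_blk]
      unfold TS
      omega
    · rw [agS _ (t + 1) (by omega) (by rw [ps_blk]; omega) rfl, ps_blk]
      unfold TS
      omega
  have stepB : ∀ t, 1 ≤ t → t ≤ 2 * h → B (row t) (col t) → B (row (t + 1)) (col t) := by
    intro t ht0 ht hb
    by_contra hn
    have e := rowb (t + 1) (by omega)
    have e' := rowb t ht0
    have bs := bit_le h (t + 1) x
    have bs' := bit_le h t x
    refine mkCopy hh hB (x + j) j 0 (by omega) (row (t + 1)) (row t) (col t) (col (2 * h + 1))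
      (Pos.lt_of_blk (by omega) (Or.inr (Or.inr rfl))) (by omega)
      (colt _ _ (by omega) le_rfl) (by rw [colb _ le_rfl]; omega) hTT ?_ ?_ ?_ ?_ hn
      (last _ (by omega) (by omega)) hb (last _ ht0 (by omega))
    · intro r h1 h2
      rw [agS r t (by omega) (by omega) h1]
      unfold TS
      omega
    · intro r h1 h2
      rw [agS r (2 * h + 1) le_rfl (by omega) h1]
      unfold TS
      omega
    · intro c h1 h2 h3
      rw [hCT (t + 1) c (by omega) (by omega) h2 h1]
      unfold CT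
      omega
    · intro c h1 h2 h3
      rw [hCT t c ht0 (by omega) h2 h1]
      unfold CT
      omega
  have chain : ∀ t, t ≤ 2 * h → B (row (t + 1)) (col t) := by
    intro t
    induction t with
    | zero =>
      intro _
      have e := rowb 1 le_rfl
      have e2 := colb 0 (by omega)
      rw [zero_add, ag3 _ _ (by omega) rfl (by simp [col]), M_F (by omega) (by omega), e2]
      exact F_zero (row 1).idx.2
    | succ t ih =>
      intro ht
      exact stepB (t + 1) (by omega) ht (stepA t (by omega) (ih (by omega)))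
  exact last (2 * h + 1) (by omega) le_rfl (stepA (2 * h) le_rfl (chain _ le_rfl))

end Crest.Agent.R47
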