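import Crest.Agent.R47.Far
import Crest.Prelude.Def_OrderedMatrix

/-! Transfer to matrices indexed by `Fin n` and the two counting bounds. -/

set_option autoImplicit false

namespace Crest.Agent.R47

open Crest.CombinatoricsR.OrderedMatrix

open Classical in
/-- the pattern as a Boolean matrix -/
noncomputable def HB (i j : Fin 66) : Bool := decide (Hp i j)

/-- rows in increasing order -/
noncomputable def eR (h : ℕ) : Fin ((386 * h + 2) * 2 ^ h) ≃o Row h :=
  monoEquivOfFin (Row h) Pos.card_eq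

/-- columns in increasing order -/
noncomputable def eC (h : ℕ) : Fin ((386 * h + 2) * 2 ^ h) ≃o Col h :=
  monoEquivOfFin (Col h) Pos.card_eq

open Classical in
/-- the host as a Boolean matrix -/
noncomputable def AB (h : ℕ) (r c : Fin ((386 * h + 2) * 2 ^ h)) : Bool :=
  decide (M (eR h r) (eC h c))

lemma AB_iff (h : ℕ) (r c : Fin ((386 * h + 2) * 2 ^ h)) :
    AB h r c = true ↔ M (eR h r) (eC h c) := by
  unfold AB
  exact @decide_eq_true_iff _ (Classical.propDecidable _)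

lemma HB_iff (i j : Fin 66) : HB i j = true ↔ Hp i j := by
  unfold HB
  exact @decide_eq_true_iff _ (Classical.propDecidable _)

lemma far_count {h : ℕ} (hh : 1 ≤ h)
    (B : Fin ((386 * h + 2) * 2 ^ h) → Fin ((386 * h + 2) * 2 ^ h) → Bool)
    (hB : orderedCopyCount HB B = 0) :
    2 ^ h * 2 ^ h ≤ (Finset.univ.filter
      (fun rc : Fin ((386 * h + 2) * 2 ^ h) × Fin ((386 * h + 2) * 2 ^ h) =>
        AB h rc.1 rc.2 ≠ B rc.1 rc.2)).card := by
  have hfree : Free (fun (r : Row h) (c : Col h) => B ((eR h).symm r) ((eC h).symm c) = true) := by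
    intro r c hr hc H
    unfold orderedCopyCount at hB
    rw [Fintype.card_eq_zero_iff] at hB
    refine hB.false ⟨((eR h).symm ∘ r, (eC h).symm ∘ c), (eR h).symm.strictMono.comp hr,
      (eC h).symm.strictMono.comp hc, fun i j => ?_⟩
    have := H i j
    simp only [Function.comp]
    rw [Bool.eq_iff_iff, HB_iff]
    exact this
  have hcard : (Finset.univ : Finset (Fin (2 ^ h) × Fin (2 ^ h))).card = 2 ^ h * 2 ^ h := by simp
  rw [← hcard]
  refine Finset.card_le_card_of_surjOn (fun rc => wit (eR h rc.1) (eC h rc.2)) ?_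
  rintro ⟨x, j⟩ -
  obtain ⟨r, c, h1, h2⟩ := far hh hfree x j
  refine ⟨((eR h).symm r, (eC h).symm c), ?_, by simpa using h2⟩
  simp only [Finset.coe_filter, Finset.mem_univ, true_and, Set.mem_ofPred_eq]
  intro h3
  apply h1
  rw [← h3, AB_iff, OrderIso.apply_symm_apply, OrderIso.apply_symm_apply]

lemma copy_count {h : ℕ} (hh : 1 ≤ h) :
    orderedCopyCount HB (AB h) ≤ ((386 * h + 2) * 2 ^ h) ^ 130 := by
  unfold orderedCopyCount
  have hcard : Fintype.card ((Fin 66 → Fin ((386 * h + 2) * 2 ^ h)) ×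
      (Fin 64 → Fin ((386 * h + 2) * 2 ^ h))) = ((386 * h + 2) * 2 ^ h) ^ 130 := by
    simp only [Fintype.card_prod, Fintype.card_fun, Fintype.card_fin]
    rw [← pow_add]
  rw [← hcard]
  refine Fintype.card_le_of_injective
    (fun rc => (rc.1.1, fun i : Fin 64 => rc.1.2 ⟨i.val + 2, by omega⟩)) ?_
  have key : ∀ (r c : Fin 66 → Fin ((386 * h + 2) * 2 ^ h)), StrictMono r → StrictMono c →
      (∀ i j, AB h (r i) (c j) = HB i j) →
      (eC h (c 0)).blk = h ∧ (eC h (c 1)).blk = h + 1 ∧ (eC h (c 0)).idx = (eR h (r 65)).idx ∧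
        (eC h (c 1)).idx = (eR h (r 65)).idx := fun r c hr hc H =>
    rigid hh (eR h ∘ r) (eC h ∘ c) ((eR h).strictMono.comp hr) ((eC h).strictMono.comp hc)
      (fun i j => by
        have := H i j
        simp only [AB, HB, decide_eq_decide] at this
        exact this)
  rintro ⟨⟨r, c⟩, hr, hc, H⟩ ⟨⟨r', c'⟩, hr', hc', H'⟩ hrc
  simp only [Prod.mk.injEq] at hrc
  obtain ⟨e1, e2⟩ := hrc
  subst e1
  obtain ⟨k1, k2, k3, k4⟩ := key r c hr hc H
  obtain ⟨k1', k2', k3', k4'⟩ := key r c' hr' hc' H'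
  have z0 : c 0 = c' 0 := (eC h).injective (Pos.ext' (by omega) (k3.trans k3'.symm))
  have z1 : c 1 = c' 1 := (eC h).injective (Pos.ext' (by omega) (k4.trans k4'.symm))
  have : c = c' := by
    funext i
    by_cases i0 : i = 0
    · rw [i0, z0]
    by_cases i1 : i = 1
    · rw [i1, z1]
    have hi : 2 ≤ i.val := by
      have a0 : i.val ≠ 0 := fun h => i0 (Fin.ext h)
      have a1 : i.val ≠ 1 := fun h => i1 (Fin.ext h)
      omega
    have := congrFun e2 ⟨i.val - 2, by omega⟩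
    simp only [Nat.sub_add_cancel hi] at this
    exact this
  subst this
  rfl

lemma arith1 (h k : ℕ) (h1 : 2 ^ h * 2 ^ h ≤ k) :
    ((386 * (h : ℝ) + 2) ^ 2)⁻¹ * (((386 * h + 2) * 2 ^ h : ℕ) : ℝ) ^ 2 ≤ (k : ℝ) := by
  have hm : (0 : ℝ) < 386 * (h : ℝ) + 2 := by positivity
  refine le_trans (le_of_eq ?_) (Nat.cast_le.2 h1)
  push_cast
  field_simp

lemma arith_aux (m N k : ℝ) (hm : 0 < m) (hN : 1 ≤ N) (h1 : k ≤ (m * N) ^ 130) :
    k / (m * N) ^ 132 ≤ (m ^ 2)⁻¹ * N⁻¹ := by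
  have hN0 : 0 < N := by linarith
  have hn0 : 0 < m * N := mul_pos hm hN0
  rw [div_le_iff₀ (pow_pos hn0 _), show 132 = 130 + 2 from rfl, pow_add]
  have hw : 0 < (m * N) ^ 130 := pow_pos hn0 _
  generalize (m * N) ^ 130 = w at h1 hw ⊢
  have e : (m ^ 2)⁻¹ * N⁻¹ * (w * (m * N) ^ 2) = w * N := by field_simp
  rw [e]
  exact h1.trans (le_mul_of_one_le_right hw.le hN)

lemma arith2 (h k : ℕ) (h1 : k ≤ ((386 * h + 2) * 2 ^ h) ^ 130) :
    (k : ℝ) / (((386 * h + 2) * 2 ^ h : ℕ) : ℝ) ^ 132 ≤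
      ((386 * (h : ℝ) + 2) ^ 2)⁻¹ * (2 : ℝ)⁻¹ ^ h := by
  have hn : (((386 * h + 2) * 2 ^ h : ℕ) : ℝ) = (386 * (h : ℝ) + 2) * 2 ^ h := by push_cast; rfl
  have h2 : (k : ℝ) ≤ (((386 * h + 2) * 2 ^ h : ℕ) : ℝ) ^ 130 := by
    rw [← Nat.cast_pow]; exact Nat.cast_le.2 h1
  rw [hn] at h2 ⊢
  rw [inv_pow]
  exact arith_aux _ _ _ (by positivity) (one_le_pow₀ (by norm_num)) h2

end Crest.Agent.R47
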