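import Crest.Agent.R47.Basic

/-! Every copy of the pattern in the host matrix sits on the diagonal of the middle stage. -/

set_option autoImplicit false

namespace Crest.Agent.R47

variable {h : ℕ}

lemma M_TS {r : Row h} {c : Col h} (hr : r.blk < 384 * h + 1) (hc : c.blk < 2 * h + 2) :
    M r c ↔ TS h r.blk c.blk c.idx := by simp [M, V, hr, hc]

lemma M_TT {r : Row h} {c : Col h} (hr : r.blk < 384 * h + 1) (hc : 2 * h + 2 ≤ c.blk) :
    M r c ↔ TT r.blk (c.blk - (2 * h + 2)) := by simp [M, V, hr, not_lt.2 hc]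

lemma M_F {r : Row h} {c : Col h} (hr : 384 * h + 1 ≤ r.blk) (hc : c.blk < 2 * h + 2) :
    M r c ↔ F h c.blk r.idx c.idx := by simp [M, V, not_lt.2 hr, hc]

lemma M_CT {r : Row h} {c : Col h} (hr : 384 * h + 1 ≤ r.blk) (hc : 2 * h + 2 ≤ c.blk) :
    M r c ↔ CT h (386 * h + 2 - r.blk) r.idx (c.blk - (2 * h + 2)) := by
  simp [M, V, not_lt.2 hr, not_lt.2 hc]

lemma TS_lt {b b' t y : ℕ} (h1 : TS h b t y) (h2 : TS h b' t y) (hb : b < b') :
    b / 14 < b' / 14 := by
  unfold TS at h1 h2; omega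

lemma TS_win {b t y : ℕ} (h1 : TS h b t y) :
    b / 14 = 4 ∨ (2 * t + 3 ≤ b / 14 ∧ b / 14 ≤ 2 * t + 6) := by
  unfold TS at h1; omega

/-- two tag rows that differ on some column lie in different blocks -/
lemma tag_lt {r r' : Row h} (c : Col h) (hlt : r < r') (hr : r'.blk < 384 * h + 1)
    (hne : ¬ (M r c ↔ M r' c)) : r.blk < r'.blk := by
  have h1 := (Pos.zone_of_lt hlt).2.2 hr
  rcases h1.lt_or_eq with h2 | h2
  · exact h2
  · exfalso
    apply hne
    have hr0 : r.blk < 384 * h + 1 := by omega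
    by_cases hc : c.blk < 2 * h + 2
    · rw [M_TS hr0 hc, M_TS hr hc, h2]
    · rw [M_TT hr0 (not_lt.1 hc), M_TT hr (not_lt.1 hc), h2]

/-- two tag columns that differ on some row lie in different blocks -/
lemma tagc_lt {c c' : Col h} (r : Row h) (hlt : c < c') (hc : 2 * h + 2 ≤ c.blk)
    (hne : ¬ (M r c ↔ M r c')) : c.blk < c'.blk := by
  have h1 := (Pos.zone_of_lt hlt).2.1 (by omega)
  rcases h1.lt_or_eq with h2 | h2
  · exact h2
  · exfalso
    apply hne
    have hc0 : 2 * h + 2 ≤ c'.blk := by omega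
    by_cases hr : r.blk < 384 * h + 1
    · rw [M_TT hr hc, M_TT hr hc0, h2]
    · rw [M_CT (not_lt.1 hr) hc, M_CT (not_lt.1 hr) hc0, h2]

lemma core_anti {r r' : Row h} {c : Col h} (hlt : r < r') (hr : 384 * h + 1 ≤ r.blk)
    (hc : c.blk < 2 * h + 2) (H : M r' c) : M r c := by
  have h1 := (Pos.zone_of_lt hlt).1 hr
  rw [M_F hr hc]
  rw [M_F h1 hc] at H
  exact F_anti (Pos.idx_le_of_lt hlt hr (by have := r'.blk_lt; omega)) H

theorem rigid (hh : 1 ≤ h) (r : Fin 66 → Row h) (c : Fin 66 → Col h) (hr : StrictMono r)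
    (hc : StrictMono c) (H : ∀ i j, M (r i) (c j) ↔ Hp i j) :
    (c 0).blk = h ∧ (c 1).blk = h + 1 ∧ (c 0).idx = (r 65).idx ∧ (c 1).idx = (r 65).idx := by
  have T : ∀ i j : Fin 66, Hp i j → M (r i) (c j) := fun i j hp => (H i j).2 hp
  have Fa : ∀ i j : Fin 66, ¬ Hp i j → ¬ M (r i) (c j) := fun i j hp hm => hp ((H i j).1 hm)
  have rl : ∀ i i' : Fin 66, ∀ j : Fin 66, i < i' → (r i').blk < 384 * h + 1 →
      ¬ (Hp i j ↔ Hp i' j) → (r i).blk < (r i').blk := fun i i' j hi h1 h2 =>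
    tag_lt (c j) (hr hi) h1 (by rwa [H, H])
  have cl : ∀ j j' : Fin 66, ∀ i : Fin 66, j < j' → 2 * h + 2 ≤ (c j).blk →
      ¬ (Hp i j ↔ Hp i j') → (c j).blk < (c j').blk := fun j j' i hj h1 h2 =>
    tagc_lt (r i) (hc hj) h1 (by rwa [H, H])
  -- step 1
  have s1 : 2 * h + 2 ≤ (c 2).blk := by
    by_contra hcon
    have hc2 : (c 2).blk < 2 * h + 2 := not_le.1 hcon
    have h61 : (r 61).blk < 384 * h + 1 := by
      by_contra h61
      have h62 := (Pos.zone_of_lt (hr (show (61 : Fin 66) < 62 by decide))).1 (not_lt.1 h61)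
      exact Fa 62 2 (by simp [Hp])
        (core_anti (hr (show (62 : Fin 66) < 63 by decide)) h62 hc2 (T 63 2 (by simp [Hp])))
    have a60 := rl 60 61 2 (by decide) h61 (by simp [Hp])
    have a59 := rl 59 60 2 (by decide) (by omega) (by simp [Hp])
    have a58 := rl 58 59 2 (by decide) (by omega) (by simp [Hp])
    have a57 := rl 57 58 2 (by decide) (by omega) (by simp [Hp])
    have a56 := rl 56 57 2 (by decide) (by omega) (by simp [Hp])
    have a55 := rl 55 56 2 (by decide) (by omega) (by simp [Hp])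
    have a54 := rl 54 55 2 (by decide) (by omega) (by simp [Hp])
    have a53 := rl 53 54 2 (by decide) (by omega) (by simp [Hp])
    have a52 := rl 52 53 2 (by decide) (by omega) (by simp [Hp])
    have a51 := rl 51 52 2 (by decide) (by omega) (by simp [Hp])
    have t61 := (M_TS h61 hc2).1 (T 61 2 (by simp [Hp]))
    have t59 := (M_TS (by omega) hc2).1 (T 59 2 (by simp [Hp]))
    have t57 := (M_TS (by omega) hc2).1 (T 57 2 (by simp [Hp]))
    have t55 := (M_TS (by omega) hc2).1 (T 55 2 (by simp [Hp]))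
    have t53 := (M_TS (by omega) hc2).1 (T 53 2 (by simp [Hp]))
    have t51 := (M_TS (by omega) hc2).1 (T 51 2 (by simp [Hp]))
    have l1 := TS_lt t51 t53 (by omega)
    have l2 := TS_lt t53 t55 (by omega)
    have l3 := TS_lt t55 t57 (by omega)
    have l4 := TS_lt t57 t59 (by omega)
    have l5 := TS_lt t59 t61 (by omega)
    have w1 := TS_win t51
    have w2 := TS_win t53
    have w3 := TS_win t61
    omega
  have b2 := cl 2 3 63 (by decide) s1 (by simp [Hp])
  have b3 := cl 3 4 63 (by decide) (by omega) (by simp [Hp])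
  have b4 := cl 4 5 63 (by decide) (by omega) (by simp [Hp])
  have b5 := cl 5 6 63 (by decide) (by omega) (by simp [Hp])
  -- step 3
  have h63 : (r 63).blk < 384 * h + 1 := by
    by_contra h63
    have t2 := (M_CT (not_lt.1 h63) s1).1 (T 63 2 (by simp [Hp]))
    have t4 := (M_CT (not_lt.1 h63) (by omega)).1 (T 63 4 (by simp [Hp]))
    have t6 := (M_CT (not_lt.1 h63) (by omega)).1 (T 63 6 (by simp [Hp]))
    unfold CT at t2 t4 t6
    omega
  have a62 := rl 62 63 2 (by decide) h63 (by simp [Hp])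
  have a61 := rl 61 62 2 (by decide) (by omega) (by simp [Hp])
  have a60 := rl 60 61 2 (by decide) (by omega) (by simp [Hp])
  have a59 := rl 59 60 2 (by decide) (by omega) (by simp [Hp])
  have a58 := rl 58 59 2 (by decide) (by omega) (by simp [Hp])
  have a57 := rl 57 58 2 (by decide) (by omega) (by simp [Hp])
  have a56 := rl 56 57 2 (by decide) (by omega) (by simp [Hp])
  have a55 := rl 55 56 2 (by decide) (by omega) (by simp [Hp])
  have a54 := rl 54 55 2 (by decide) (by omega) (by simp [Hp])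
  have a53 := rl 53 54 2 (by decide) (by omega) (by simp [Hp])
  have a52 := rl 52 53 2 (by decide) (by omega) (by simp [Hp])
  have a51 := rl 51 52 2 (by decide) (by omega) (by simp [Hp])
  have u1 := (M_TT (by omega) s1).1 (T 51 2 (by simp [Hp]))
  have u2 := (M_TT h63 s1).1 (T 63 2 (by simp [Hp]))
  have u4 := (M_TT h63 (by omega)).1 (T 63 4 (by simp [Hp]))
  have u6 := (M_TT h63 (by omega)).1 (T 63 6 (by simp [Hp]))
  obtain ⟨f, hf⟩ : ∃ f, ((c 2).blk - (2 * h + 2)) / 5 = f := ⟨_, rfl⟩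
  have e52 : (r 52).blk / 14 = f + 4 ∧ (r 52).blk % 14 = 1 ∧ (r 54).blk / 14 = f + 4 ∧
      (r 54).blk % 14 = 3 := by
    have v1 : (r 51).blk / 14 = f + 4 := by unfold TT at u1; omega
    have v2 : (r 63).blk / 14 = f + 4 ∧ (r 63).blk % 14 ≤ 12 := by unfold TT at u2 u4; omega
    omega
  have e3 : ((c 3).blk - (2 * h + 2)) / 5 = f ∧ ((c 3).blk - (2 * h + 2)) % 5 = 1 := by
    have v1 : ((c 6).blk - (2 * h + 2)) / 5 = f := by unfold TT at u2 u6; omega
    omega
  have h52 : (r 52).blk < 384 * h + 1 := by omega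
  have h54 : (r 54).blk < 384 * h + 1 := by omega
  have hc3 : 2 * h + 2 ≤ (c 3).blk := by omega
  clear a62 a61 a60 a59 a58 a57 a56 a55 a54 a53 a52 a51 u1 u2 u4 u6 b2 b3 b4 b5
  have hc0 : (c 0).blk < 2 * h + 2 := by
    by_contra h0
    have := (M_TT h52 (not_lt.1 h0)).1 (T 52 0 (by simp [Hp]))
    unfold TT at this; omega
  have hc1 : (c 1).blk < 2 * h + 2 := by
    by_contra h0
    have := (M_TT h54 (not_lt.1 h0)).1 (T 54 1 (by simp [Hp]))
    unfold TT at this; omega
  have q0 := (M_TS h52 hc0).1 (T 52 0 (by simp [Hp]))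
  have q1 := (M_TS h54 hc1).1 (T 54 1 (by simp [Hp]))
  have h65 : 384 * h + 1 ≤ (r 65).blk := by
    by_contra h0
    have v1 := (M_TT (not_le.1 h0) hc3).1 (T 65 3 (by simp [Hp]))
    have v2 := (M_TS (not_le.1 h0) hc0).1 (T 65 0 (by simp [Hp]))
    unfold TT at v1; unfold TS at v2; omega
  have h64 : (r 64).blk < 384 * h + 1 := by
    by_contra h0
    exact Fa 64 0 (by simp [Hp])
      (core_anti (hr (show (64 : Fin 66) < 65 by decide)) (not_lt.1 h0) hc0 (T 65 0 (by simp [Hp])))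
  have hf0 : f ≠ 0 := by
    have v1 := (M_TT h64 hc3).1 (T 64 3 (by simp [Hp]))
    unfold TT at v1; omega
  have p3 := (M_CT h65 hc3).1 (T 65 3 (by simp [Hp]))
  have p0 := (M_F h65 hc0).1 (T 65 0 (by simp [Hp]))
  have p1 : ¬ F h (c 1).blk (r 65).idx (c 1).idx := fun hF =>
    Fa 65 1 (by simp [Hp]) ((M_F h65 hc1).2 hF)
  have hb := (r 65).blk_lt
  obtain ⟨s, hs⟩ : ∃ s, 386 * h + 2 - (r 65).blk = s := ⟨_, rfl⟩
  rw [hs] at p3
  have bs := bit_le h s (r 65).idx
  unfold CT at p3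
  unfold TS at q0 q1
  have e0 : s = (c 0).blk + 1 := by omega
  have e1 : (c 1).blk = (c 0).blk + 1 := by omega
  rw [e1] at p1 q1
  rw [e0] at p3 bs
  have := F_step (t := (c 0).blk) (x := (r 65).idx) (y := (c 0).idx) (y' := (c 1).idx) hh
    (by omega) (r 65).idx.2 (c 0).idx.2
    (by
      by_cases z1 : (c 0).blk = 0
      · exact Or.inl z1
      by_cases z2 : (c 0).blk = 2 * h
      · exact Or.inr (Or.inl z2)
      exact Or.inr (Or.inr (Pos.idx_le_of_lt (hc (show (0 : Fin 66) < 1 by decide)) (by omega)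
        (by omega))))
    (by omega) (by omega) p0 p1
  exact ⟨this.1, by omega, Fin.ext this.2.1.symm, Fin.ext this.2.2.symm⟩

end Crest.Agent.R47
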